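import Vale.Agent.P287.R2.H579.Defs

/-!
P287: cyclic cubic fourfolds (helper579): if no two planes are disjoint, they have a common point
on the axis or their traces on the axis lie in one plane.
-/

namespace Vale.Agent.P287.R2.H579

open Module Submodule
open Vale.Agent.P287.R2.H248 Vale.Agent.P287.R2.H622

variable {V : Type*} [AddCommGroup V] [Module ℂ V] {S : Tri V} {o : V} {l : V →ₗ[ℂ] ℂ}

/-- If no two planes are disjoint and there are at least four, then they have a common point on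
the axis, or their traces lie in one three-dimensional subspace of the axis. -/
theorem Cyc.common_or (hC : Cyc S o l) [FiniteDimensional ℂ V] (hV : finrank ℂ V = 6)
    (hS : S.Smooth) (hno : ∀ P Q, Pl S P → Pl S Q → ¬ Disjoint P Q)
    (s : Finset (Submodule ℂ V)) (hs : ∀ P ∈ s, Pl S P) (hc : 4 ≤ s.card) :
    (∃ p, p ≠ 0 ∧ l p = 0 ∧ ∀ P, Pl S P → p ∈ P) ∨
      ∃ W : Submodule ℂ V, finrank ℂ W = 3 ∧ W ≤ LinearMap.ker l ∧
        ∀ P, Pl S P → P ⊓ LinearMap.ker l ≤ W := by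
  classical
  obtain ⟨w, hw⟩ : ∃ w : ℂ, w ^ 2 + w + 1 = 0 := by
    obtain ⟨z, hz⟩ := IsAlgClosed.exists_pow_nat_eq (-3 : ℂ) (n := 2) (by norm_num)
    exact ⟨(-1 + z) / 2, by linear_combination (1 / 4 : ℂ) * hz⟩
  have hw3 : w ^ 3 = 1 := by linear_combination (w - 1) * hw
  have hw1 : w ≠ 1 := by
    rintro rfl
    norm_num at hw
  have hmeet : ∀ P, Pl S P → ∀ Q, Pl S Q → ∃ v, v ∈ P ∧ v ∈ Q ∧ l v = 0 ∧ v ≠ 0 := by
    intro P hP Q hQ
    by_contra hcon
    push Not at hcon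
    rcases hC.disjoint_or hS hw3 hw1 hP hQ hcon with h | h
    · exact hno _ _ hP hQ h
    · exact hno _ _ hP (hC.pl_map hw3 hQ) h
  rw [or_iff_not_imp_left]
  intro hcon
  push Not at hcon
  obtain ⟨P1, hP1s⟩ : s.Nonempty := Finset.card_pos.mp (by omega)
  obtain ⟨P2, hP2s, h12⟩ : ∃ P2 ∈ s, P2 ⊓ LinearMap.ker l ≠ P1 ⊓ LinearMap.ker l := by
    by_contra hall
    push Not at hall
    have h1 := hC.card_fiber hS s hs (fun P hP Q hQ =>
      hC.le_sup hV hS (hs P hP) (hs Q hQ) ((hall Q hQ).trans (hall P hP).symm))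
    omega
  have hP1 := hs P1 hP1s
  have hP2 := hs P2 hP2s
  obtain ⟨e, he1, he2, hle, he0⟩ := hmeet P1 hP1 P2 hP2
  have hA := hC.finrank_tr hV hS hP1
  have hB := hC.finrank_tr hV hS hP2
  set A := P1 ⊓ LinearMap.ker l with hAdef
  set B := P2 ⊓ LinearMap.ker l with hBdef
  have heA : e ∈ A := ⟨he1, hle⟩
  have heB : e ∈ B := ⟨he2, hle⟩
  have hAB : finrank ℂ ↥(A ⊓ B) ≤ 1 := by
    by_contra h
    push Not at h
    apply h12
    have h4 : A ⊓ B = A := Submodule.eq_of_le_of_finrank_le inf_le_left (by omega)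
    have h5 : A ⊓ B = B := Submodule.eq_of_le_of_finrank_le inf_le_right (by omega)
    rw [← h5]
    exact h4
  have hAB1 : 1 ≤ finrank ℂ ↥(A ⊓ B) := by
    have h1 : span ℂ {e} ≤ A ⊓ B := by
      rw [span_singleton_le_iff_mem]; exact ⟨heA, heB⟩
    have h2 := Submodule.finrank_mono h1
    rwa [finrank_span_singleton he0] at h2
  have hW : finrank ℂ ↥(A ⊔ B) = 3 := by
    have := Submodule.finrank_sup_add_finrank_inf_eq A B
    omega
  obtain ⟨P3, hP3, he3⟩ := hcon e he0 hle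
  have main : ∀ P, Pl S P → e ∉ P → P ⊓ LinearMap.ker l ≤ A ⊔ B := by
    intro P hP heP
    obtain ⟨a, ha1, haP, hla, ha0⟩ := hmeet P1 hP1 P hP
    obtain ⟨b, hb2, hbP, hlb, hb0⟩ := hmeet P2 hP2 P hP
    exact le_of_meet hAB heA heB (fun h => heP h.1) (hC.finrank_tr hV hS hP) ha0
      ⟨ha1, hla⟩ ⟨haP, hla⟩ hb0 ⟨hb2, hlb⟩ ⟨hbP, hlb⟩
  refine ⟨A ⊔ B, hW, sup_le inf_le_right inf_le_right, ?_⟩
  intro P hP
  by_cases heP : e ∈ P
  · obtain ⟨g, hg3, hgP, hlg, hg0⟩ := hmeet P3 hP3 P hP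
    refine le_of_two (hC.finrank_tr hV hS hP) (a := e) (b := g) ⟨heP, hle⟩
      (mem_sup_left heA) he0 ⟨hgP, hlg⟩ (main P3 hP3 he3 ⟨hg3, hlg⟩) ?_
    intro h
    obtain ⟨c, rfl⟩ := mem_span_singleton.mp h
    have hc0 : c ≠ 0 := by
      rintro rfl
      exact hg0 (zero_smul _ _)
    exact he3 ((P3.smul_mem_iff hc0).mp hg3)
  · exact main P hP heP

/-- If the traces lie in one three-dimensional subspace of the axis, no two planes are disjoint. -/
lemma Cyc.meet_of_traces (hC : Cyc S o l) [FiniteDimensional ℂ V] (hV : finrank ℂ V = 6)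
    (hS : S.Smooth) {P Q W : Submodule ℂ V} (hP : Pl S P) (hQ : Pl S Q) (hW : finrank ℂ W = 3)
    (hPW : P ⊓ LinearMap.ker l ≤ W) (hQW : Q ⊓ LinearMap.ker l ≤ W) : ¬ Disjoint P Q := by
  intro hd
  have h1 := Submodule.finrank_sup_add_finrank_inf_eq (P ⊓ LinearMap.ker l)
    (Q ⊓ LinearMap.ker l)
  have h2 : (P ⊓ LinearMap.ker l) ⊓ (Q ⊓ LinearMap.ker l) = ⊥ := by
    rw [eq_bot_iff, ← hd.eq_bot]
    exact inf_le_inf inf_le_left inf_le_left
  have h3 := Submodule.finrank_mono (sup_le hPW hQW)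
  rw [h2, finrank_bot, hC.finrank_tr hV hS hP, hC.finrank_tr hV hS hQ] at h1
  omega

end Vale.Agent.P287.R2.H579
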