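import Vale.Agent.P287.R2.H579.Fib

/-!
P287: cyclic cubic fourfolds (helper579): pairwise meeting lines, at most three lines of a plane
cubic, and the number of planes.
-/

namespace Vale.Agent.P287.R2.H579

open Module Submodule
open Vale.Agent.P287.R2.H248 Vale.Agent.P287.R2.H622

variable {V : Type*} [AddCommGroup V] [Module ℂ V] {S : Tri V} {o : V} {l : V →ₗ[ℂ] ℂ}

/-- The residual linear form of two lines of a plane cubic. -/
lemma exists_form [FiniteDimensional ℂ V] {P Q : Submodule ℂ V} (hP : S.Iso P) (hQ : S.Iso Q)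
    (hPd : finrank ℂ ↥(P ⊓ Q) + 1 = finrank ℂ P) (hQd : finrank ℂ ↥(P ⊓ Q) + 1 = finrank ℂ Q) :
    ∃ m : V →ₗ[ℂ] ℂ, (∀ u ∈ P ⊔ Q, m u = 0 → S.T u u u = 0) ∧
      ∀ u ∈ P ⊔ Q, S.T u u u = 0 → u ∈ P ∨ u ∈ Q ∨ u ∈ LinearMap.ker m := by
  have hPQ' : ¬ P ≤ Q := by
    intro h
    rw [inf_eq_left.mpr h] at hPd
    omega
  have hQP' : ¬ Q ≤ P := by
    intro h
    rw [inf_eq_right.mpr h] at hQd
    omega
  obtain ⟨p, hp, hpQ⟩ := Set.not_subset.mp hPQ'
  obtain ⟨q, hq, hqP⟩ := Set.not_subset.mp hQP'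
  obtain ⟨f, hfp, hfQ⟩ := exists_functional hpQ
  obtain ⟨g, hgq, hgP⟩ := exists_functional hqP
  have hpL : p ∉ P ⊓ Q := fun h => hpQ h.2
  have hqL : q ∉ P ⊓ Q := fun h => hqP h.1
  have hPL : P ⊓ Q ⊔ span ℂ {p} = P := by
    apply Submodule.eq_of_le_of_finrank_eq
    · refine sup_le inf_le_left ?_
      rw [span_singleton_le_iff_mem]; exact hp
    · rw [finrank_sup_single hpL, hPd]
  have hQL : P ⊓ Q ⊔ span ℂ {q} = Q := by
    apply Submodule.eq_of_le_of_finrank_eq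
    · refine sup_le inf_le_right ?_
      rw [span_singleton_le_iff_mem]; exact hq
    · rw [finrank_sup_single hqL, hQd]
  have decP : ∀ v ∈ P, ∃ x ∈ P ⊓ Q, ∃ a : ℂ, v = x + a • p := by
    intro v hv
    rw [← hPL] at hv
    obtain ⟨x, hx, y, hy, rfl⟩ := mem_sup.mp hv
    obtain ⟨a, rfl⟩ := mem_span_singleton.mp hy
    exact ⟨x, hx, a, rfl⟩
  have decQ : ∀ v ∈ Q, ∃ x ∈ P ⊓ Q, ∃ a : ℂ, v = x + a • q := by
    intro v hv
    rw [← hQL] at hv
    obtain ⟨x, hx, y, hy, rfl⟩ := mem_sup.mp hv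
    obtain ⟨a, rfl⟩ := mem_span_singleton.mp hy
    exact ⟨x, hx, a, rfl⟩
  have decW : ∀ v ∈ P ⊔ Q, ∃ x ∈ P ⊓ Q, ∃ a b : ℂ, v = x + a • p + b • q := by
    intro v hv
    obtain ⟨y, hy, z, hz, rfl⟩ := mem_sup.mp hv
    obtain ⟨x, hx, a, rfl⟩ := decP y hy
    obtain ⟨x', hx', b, rfl⟩ := decQ z hz
    exact ⟨x + x', Submodule.add_mem _ hx hx', a, b, by abel⟩
  let m : V →ₗ[ℂ] ℂ := (2 : ℂ) • S.T p q - (S.T p p q) • f - (S.T p q q) • g
  have hm : ∀ v, m v = 2 * S.T p q v - S.T p p q * f v - S.T p q q * g v := fun v => rfl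
  have vals : ∀ x ∈ P ⊓ Q, ∀ a b : ℂ,
      m (x + a • p + b • q) = 2 * S.T x p q + a * S.T p p q + b * S.T p q q := by
    intro x hx a b
    have h1 : f (x + a • p + b • q) = a := by
      rw [map_add, map_add, map_smul, map_smul, hfp, hfQ x hx.2, hfQ q hq]
      simp
    have h2 : g (x + a • p + b • q) = b := by
      rw [map_add, map_add, map_smul, map_smul, hgq, hgP x hx.1, hgP p hp]
      simp
    rw [hm, h1, h2]
    simp only [map_add, map_smul, smul_eq_mul]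
    rw [← S.cyc x p q, S.s23 p q p]
    ring
  have cube : ∀ x ∈ P ⊓ Q, ∀ a b : ℂ,
      S.T (x + a • p + b • q) (x + a • p + b • q) (x + a • p + b • q) =
      3 * a * b * (2 * S.T x p q + a * S.T p p q + b * S.T p q q) := by
    intro x hx a b
    exact cube_three S x p q a b (hP x hx.1) (hP.three hx.1 hx.1 hp) (hP.three hx.1 hp hp)
      (hP p hp) (hQ.three hx.2 hx.2 hq) (hQ.three hx.2 hq hq) (hQ q hq)
  refine ⟨m, ?_, ?_⟩
  · intro u hu hul
    obtain ⟨x, hx, a, b, rfl⟩ := decW u hu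
    rw [vals x hx a b] at hul
    rw [cube x hx a b, hul, mul_zero]
  · intro u hu hu3
    obtain ⟨x, hx, a, b, rfl⟩ := decW u hu
    rw [cube x hx a b] at hu3
    by_cases ha : a = 0
    · right; left
      rw [ha, zero_smul, add_zero]
      exact Q.add_mem hx.2 (Q.smul_mem _ hq)
    · by_cases hb : b = 0
      · left
        rw [hb, zero_smul, add_zero]
        exact P.add_mem hx.1 (P.smul_mem _ hp)
      · right; right
        change m (x + a • p + b • q) = 0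
        rw [vals x hx a b]
        have h3 : (3 : ℂ) * a * b ≠ 0 := by
          apply mul_ne_zero (mul_ne_zero (by norm_num) ha) hb
        exact (mul_eq_zero.mp hu3).resolve_left h3

/-- Two different two-dimensional subspaces of a three-dimensional space. -/
lemma finrank_two [FiniteDimensional ℂ V] {A B W : Submodule ℂ V} (hA : finrank ℂ A = 2)
    (hB : finrank ℂ B = 2) (hAB : A ≠ B) (hAW : A ≤ W) (hBW : B ≤ W) (hW : finrank ℂ W = 3) :
    finrank ℂ ↥(A ⊓ B) = 1 ∧ A ⊔ B = W := by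
  have h1 := Submodule.finrank_sup_add_finrank_inf_eq A B
  have h2 : finrank ℂ ↥(A ⊔ B) ≤ 3 := by
    rw [← hW]
    exact Submodule.finrank_mono (sup_le hAW hBW)
  have h3 : finrank ℂ ↥(A ⊓ B) ≠ 2 := by
    intro h
    apply hAB
    have h4 : A ⊓ B = A := Submodule.eq_of_le_of_finrank_eq inf_le_left (by omega)
    have h5 : A ⊓ B = B := Submodule.eq_of_le_of_finrank_eq inf_le_right (by omega)
    rw [← h4]
    exact h5
  have h4 : finrank ℂ ↥(A ⊓ B) ≤ 2 := by
    rw [← hA]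
    exact Submodule.finrank_mono inf_le_left
  have h5 : finrank ℂ ↥(A ⊓ B) = 1 := by omega
  refine ⟨h5, Submodule.eq_of_le_of_finrank_eq (sup_le hAW hBW) (by omega)⟩

/-- A plane cubic with four lines is zero. -/
lemma iso_of_four [FiniteDimensional ℂ V] {A B C D W : Submodule ℂ V} (hA : finrank ℂ A = 2)
    (hB : finrank ℂ B = 2) (hC : finrank ℂ C = 2) (hD : finrank ℂ D = 2) (iA : S.Iso A)
    (iB : S.Iso B) (iC : S.Iso C) (iD : S.Iso D) (hAB : A ≠ B) (hCA : C ≠ A) (hCB : C ≠ B)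
    (hDA : D ≠ A) (hDB : D ≠ B) (hCD : C ≠ D) (hAW : A ≤ W) (hBW : B ≤ W) (hCW : C ≤ W)
    (hDW : D ≤ W) (hW : finrank ℂ W = 3) : S.Iso W := by
  obtain ⟨h1, h2⟩ := finrank_two hA hB hAB hAW hBW hW
  obtain ⟨-, h3⟩ := finrank_two hC hD hCD hCW hDW hW
  obtain ⟨m, hm1, hm2⟩ := exists_form iA iB (by omega) (by omega)
  rw [h2] at hm1 hm2
  have h4 : ∀ E : Submodule ℂ V, finrank ℂ E = 2 → S.Iso E → E ≠ A → E ≠ B → E ≤ W →
      E ≤ LinearMap.ker m := by
    intro E hE iE hEA hEB hEW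
    rcases le_of_union (fun x hx => hm2 x (hEW hx) (iE x hx)) with h | h | h
    · exact absurd (Submodule.eq_of_le_of_finrank_eq h (by omega)) hEA
    · exact absurd (Submodule.eq_of_le_of_finrank_eq h (by omega)) hEB
    · exact h
  have h5 : W ≤ LinearMap.ker m := by
    rw [← h3]
    exact sup_le (h4 C hC iC hCA hCB hCW) (h4 D hD iD hDA hDB hDW)
  intro u hu
  exact hm1 u hu (h5 hu)

/-- The fibres of a map that remembers the trace on the axis have at most three elements. -/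
lemma Cyc.card_fiber (hC : Cyc S o l) [FiniteDimensional ℂ V] (hS : S.Smooth)
    (s : Finset (Submodule ℂ V)) (hs : ∀ P ∈ s, Pl S P)
    (h : ∀ P ∈ s, ∀ Q ∈ s, Q ≤ P ⊔ span ℂ {o}) : s.card ≤ 3 := by
  classical
  rcases s.eq_empty_or_nonempty with rfl | ⟨P, hP⟩
  · simp
  obtain ⟨w, hw⟩ : ∃ w : ℂ, w ^ 2 + w + 1 = 0 := by
    obtain ⟨s', r', -, -⟩ := quad_zero 1 1 1
    obtain ⟨z, hz⟩ := IsAlgClosed.exists_pow_nat_eq (-3 : ℂ) (n := 2) (by norm_num)
    exact ⟨(-1 + z) / 2, by linear_combination (1 / 4 : ℂ) * hz⟩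
  have h1 : s ⊆ {P.map (hom o l 1), P.map (hom o l w), P.map (hom o l (w ^ 2))} := by
    intro Q hQ
    rw [Finset.mem_insert, Finset.mem_insert, Finset.mem_singleton]
    exact hC.eq_map hS hw (hs P hP) (hs Q hQ) (h P hP Q hQ)
  exact (Finset.card_le_card h1).trans Finset.card_le_three

lemma Cyc.card_le_image (hC : Cyc S o l) [FiniteDimensional ℂ V] (hV : finrank ℂ V = 6)
    (hS : S.Smooth) [DecidableEq (Submodule ℂ V)]
    (s : Finset (Submodule ℂ V)) (hs : ∀ P ∈ s, Pl S P) :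
    s.card ≤ 3 * (s.image fun P => P ⊓ LinearMap.ker l).card := by
  apply Finset.card_le_mul_card_image
  intro A _
  apply hC.card_fiber hS
  · intro P hP
    exact hs P (Finset.mem_filter.mp hP).1
  · intro P hP Q hQ
    rw [Finset.mem_filter] at hP hQ
    exact hC.le_sup hV hS (hs P hP.1) (hs Q hQ.1) (hQ.2.trans hP.2.symm)

/-- At most nine planes have their traces in one three-dimensional space. -/
lemma Cyc.card_le_nine (hC : Cyc S o l) [FiniteDimensional ℂ V] (hV : finrank ℂ V = 6)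
    (hS : S.Smooth) (s : Finset (Submodule ℂ V)) (hs : ∀ P ∈ s, Pl S P) {W : Submodule ℂ V}
    (hW : finrank ℂ W = 3) (hWl : W ≤ LinearMap.ker l)
    (h : ∀ P ∈ s, P ⊓ LinearMap.ker l ≤ W) : s.card ≤ 9 := by
  classical
  have h1 := hC.card_le_image hV hS s hs
  have h2 : (s.image fun P => P ⊓ LinearMap.ker l).card ≤ 3 := by
    by_contra hcon
    push Not at hcon
    set t := s.image fun P => P ⊓ LinearMap.ker l with ht
    have ht1 : ∀ A ∈ t, finrank ℂ A = 2 ∧ S.Iso A ∧ A ≤ W := by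
      intro A hA
      rw [ht, Finset.mem_image] at hA
      obtain ⟨P, hP, rfl⟩ := hA
      exact ⟨hC.finrank_tr hV hS (hs P hP), (hs P hP).2.mono inf_le_left, h P hP⟩
    obtain ⟨A, hA, B, hB, hAB⟩ := Finset.one_lt_card.mp (show 1 < t.card by omega)
    have h3 : 1 < ((t.erase A).erase B).card := by
      rw [Finset.card_erase_of_mem (Finset.mem_erase.mpr ⟨hAB.symm, hB⟩),
        Finset.card_erase_of_mem hA]
      omega
    obtain ⟨C, hCt, D, hDt, hCD⟩ := Finset.one_lt_card.mp h3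
    rw [Finset.mem_erase, Finset.mem_erase] at hCt hDt
    have h4 := iso_of_four (ht1 A hA).1 (ht1 B hB).1 (ht1 C hCt.2.2).1 (ht1 D hDt.2.2).1
      (ht1 A hA).2.1 (ht1 B hB).2.1 (ht1 C hCt.2.2).2.1 (ht1 D hDt.2.2).2.1 hAB
      hCt.2.1 hCt.1 hDt.2.1 hDt.1 hCD (ht1 A hA).2.2 (ht1 B hB).2.2 (ht1 C hCt.2.2).2.2
      (ht1 D hDt.2.2).2.2 hW
    exact hC.not_le hV hS ⟨hW, h4⟩ hWl
  omega

end Vale.Agent.P287.R2.H579
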