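import Vale.Agent.P287.R2.H622.Geo
import Vale.Agent.P287.R2.H248.Eckardt

/-!
P287: cyclic cubic fourfolds (helper579), linear algebra. The cubic form is the sum of a form on
the hyperplane `ker l` and a multiple of the cube of `l`; the point `o` spans the complement.
-/

namespace Vale.Agent.P287.R2.H579

open Module Submodule
open Vale.Agent.P287.R2.H248 Vale.Agent.P287.R2.H622

variable {V : Type*} [AddCommGroup V] [Module ℂ V] {S : Tri V} {o : V} {l : V →ₗ[ℂ] ℂ}

/-- `S.T v v v = S.T h h h + (l v) ^ 3 * S.T o o o`, where `h = v - l v • o`. -/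
structure Cyc (S : Tri V) (o : V) (l : V →ₗ[ℂ] ℂ) : Prop where
  lo : l o = 1
  oo : ∀ x, l x = 0 → S.T o o x = 0
  oh : ∀ x y, l x = 0 → l y = 0 → S.T o x y = 0

end Vale.Agent.P287.R2.H579
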