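import Vale.Agent.P287.R2.H579.Main
import Vale.Agent.P287.R2.H809.Ecd
import Vale.Agent.P287.R2.H248.TwoPoints
import Vale.Agent.P287.R2.H622.Planes28

/-!
P287: cyclic cubic fourfolds (helper579, with helper809): polynomials, the concurrent case, and
the case of 28 planes.
-/

namespace Vale.Agent.P287.R2.H579

open Module Submodule MvPolynomial
open Vale.Agent.P287.R2.H248 Vale.Agent.P287.R2.H622

/-- `X = {F = 0}` is cyclic: in coordinates in which `l` is the last coordinate and `o` the last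
basis vector, `F` is the sum of a form in the other coordinates and a multiple of the cube of the
last coordinate. -/
def IsCyclic (F : MvPolynomial (Fin 6) ℂ) (o : A6) (l : A6 →ₗ[ℂ] ℂ) : Prop :=
  l o = 1 ∧ ∃ c : ℂ, ∀ v, eval v F = eval (v - l v • o) F + c * l v ^ 3

lemma IsCyclic.cyc {F : MvPolynomial (Fin 6) ℂ} {o : A6} {l : A6 →ₗ[ℂ] ℂ}
    (h : IsCyclic F o l) (hF : F.IsHomogeneous 3) : Cyc (pol F) o l := by
  obtain ⟨lo, c, hc⟩ := h
  have key : ∀ x, l x = 0 → ∀ t : ℂ, 3 * t * (pol F).T x x o + 3 * t ^ 2 * (pol F).T x o o +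
      t ^ 3 * (pol F).T o o o = c * t ^ 3 := by
    intro x hx t
    have h1 := hc (x + t • o)
    have h2 : l (x + t • o) = t := by rw [map_add, map_smul, hx, lo, smul_eq_mul]; ring
    rw [h2, add_sub_cancel_right, ← pol_three hF, ← pol_three hF] at h1
    have h3 := (pol F).cube_add 1 t x o
    rw [one_smul, h1] at h3
    linear_combination -h3
  have ho : ∀ x, l x = 0 → (pol F).T x o o = 0 := by
    intro x hx
    linear_combination (1 / 6 : ℂ) * (key x hx 1 + key x hx (-1))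
  have hh : ∀ x, l x = 0 → (pol F).T x x o = 0 := by
    intro x hx
    linear_combination (8 / 18 : ℂ) * key x hx 1 - (1 / 18 : ℂ) * key x hx 2 -
      (2 / 3 : ℂ) * ho x hx
  refine ⟨lo, ?_, ?_⟩
  · intro x hx
    rw [← (pol F).cyc x o o]
    exact ho x hx
  · intro x y hx hy
    have hxy : l (x + y) = 0 := by rw [map_add, hx, hy, add_zero]
    have h1 := hh _ hxy
    simp only [map_add, LinearMap.add_apply] at h1
    rw [hh x hx, hh y hy, (pol F).s12 y x o] at h1
    rw [(pol F).cyc o x y]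
    linear_combination (1 / 2 : ℂ) * h1

lemma eckardt_of_pol {F : MvPolynomial (Fin 6) ℂ} (hF : F.IsHomogeneous 3) {p : A6}
    (h : (pol F).Eckardt p) : IsEckardt F p := by
  obtain ⟨h0, h1, h2⟩ := h
  refine ⟨h0, by rw [← pol_three hF]; exact h1, ?_⟩
  intro x hx c
  have hx' : (pol F).T p p x = 0 := by
    rw [pol_two hF]
    unfold InTangent at hx
    rw [hx, mul_zero]
  have h3 := (pol F).cube_add 1 c x p
  rw [one_smul, h1, (pol F).cyc x p p, hx', ← (pol F).cyc p x x, h2 x x hx' hx'] at h3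
  rw [← pol_three hF, ← pol_three hF, h3]
  ring

variable {V : Type*} [AddCommGroup V] [Module ℂ V] {S : Tri V} {o : V} {l : V →ₗ[ℂ] ℂ}

/-- At most three planes in the join of `o` and a plane. -/
lemma Cyc.card_le_three (hC : Cyc S o l) [FiniteDimensional ℂ V] (hS : S.Smooth)
    (s : Finset (Submodule ℂ V)) (hs : ∀ P ∈ s, Pl S P) {P : Submodule ℂ V} (hP : Pl S P)
    (h : ∀ Q ∈ s, Q ≤ P ⊔ span ℂ {o}) : s.card ≤ 3 := by
  classical
  obtain ⟨w, hw⟩ : ∃ w : ℂ, w ^ 2 + w + 1 = 0 := by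
    obtain ⟨z, hz⟩ := IsAlgClosed.exists_pow_nat_eq (-3 : ℂ) (n := 2) (by norm_num)
    exact ⟨(-1 + z) / 2, by linear_combination (1 / 4 : ℂ) * hz⟩
  have h1 : s ⊆ {P.map (hom o l 1), P.map (hom o l w), P.map (hom o l (w ^ 2))} := by
    intro Q hQ
    rw [Finset.mem_insert, Finset.mem_insert, Finset.mem_singleton]
    exact hC.eq_map hS hw hP (hs Q hQ) (h Q hQ)
  exact (Finset.card_le_card h1).trans Finset.card_le_three

/-- A common point of ten planes on the axis is an Eckardt point. -/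
theorem Cyc.eckardt (hC : Cyc S o l) [FiniteDimensional ℂ V] (hV : finrank ℂ V = 6)
    (hS : S.Smooth) (s : Finset (Submodule ℂ V)) (hs : ∀ P ∈ s, Pl S P) (hc : 7 ≤ s.card) {p : V}
    (hp0 : p ≠ 0) (hp : l p = 0) (hps : ∀ P ∈ s, p ∈ P) : S.Eckardt p := by
  classical
  by_contra hE
  have h1 : s.card ≤ 3 * (s.image fun P => P ⊔ span ℂ {o}).card := by
    apply Finset.card_le_mul_card_image
    intro A _
    apply hC.card_fiber hS
    · intro P hP
      exact hs P (Finset.mem_filter.mp hP).1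
    · intro P hP Q hQ
      rw [Finset.mem_filter] at hP hQ
      rw [hP.2, ← hQ.2]
      exact le_sup_left
  have h2 : (s.image fun P => P ⊔ span ℂ {o}).card ≤ 2 := by
    by_contra hcon
    push Not at hcon
    obtain ⟨A, hA, B, hB, C, hCt, hAB, hAC, hBC⟩ := Finset.two_lt_card.mp hcon
    rw [Finset.mem_image] at hA hB hCt
    obtain ⟨P1, hP1, rfl⟩ := hA
    obtain ⟨P2, hP2, rfl⟩ := hB
    obtain ⟨P3, hP3, rfl⟩ := hCt
    rcases H809.sup_of_not_eckardt hV hS hC hp0 hp hE (hs P1 hP1) (hs P2 hP2) (hs P3 hP3)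
      (hps P1 hP1) (hps P2 hP2) (hps P3 hP3) hAB with h | h
    · exact hAC h.symm
    · exact hBC h.symm
  omega

/-- A point of `Q` with image in `P`, when `P` and `Q` meet off the axis. -/
lemma Cyc.l_eq_zero (hC : Cyc S o l) (hS : S.Smooth) {w : ℂ} (hw : w ^ 3 = 1) (hw1 : w ≠ 1)
    {P Q : Submodule ℂ V} (hP : Pl S P) (hQ : Pl S Q) {a c : V} (haP : a ∈ P) (haQ : a ∈ Q)
    (hla : l a ≠ 0) (hc : c ∈ Q) (hcP : hom o l w c ∈ P) : l c = 0 := by
  have key : ∀ s : ℂ, (l (c + s • a) + (w - 1) * l c) ^ 3 - l (c + s • a) ^ 3 = 0 := by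
    intro s
    have h1 : S.T (hom o l w c + s • a) (hom o l w c + s • a) (hom o l w c + s • a) = 0 :=
      hP.2 _ (P.add_mem hcP (P.smul_mem _ haP))
    have h2 : S.T (c + s • a) (c + s • a) (c + s • a) = 0 :=
      hQ.2 _ (Q.add_mem hc (Q.smul_mem _ haQ))
    have e : hom o l w c + s • a = (c + s • a) + ((w - 1) * l c) • o := by
      rw [hom_apply]; abel
    rw [e, hC.shift, h2, zero_add] at h1
    exact (mul_eq_zero.mp h1).resolve_right (hC.ne hS)
  have k1 := key 1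
  have k2 := key (-1)
  simp only [map_add, map_smul, smul_eq_mul] at k1 k2
  have h3 : 6 * l c * l a ^ 2 * (w - 1) = 0 := by
    linear_combination k1 + k2 - 2 * l c ^ 3 * hw
  by_contra h
  have : 6 * l c * l a ^ 2 * (w - 1) ≠ 0 :=
    mul_ne_zero (mul_ne_zero (mul_ne_zero (by norm_num) h) (pow_ne_zero 2 hla))
      (sub_ne_zero.mpr hw1)
  exact this h3

lemma hom_of_l {c : ℂ} {v : V} (hv : l v = 0) : hom o l c v = v := by
  rw [hom_apply, hv, mul_zero, zero_smul, add_zero]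

/-- A plane and its image meet in a line. -/
lemma Cyc.meet (hC : Cyc S o l) [FiniteDimensional ℂ V] (hV : finrank ℂ V = 6)
    (hS : S.Smooth) {w : ℂ} (hw1 : w ≠ 1) {P : Submodule ℂ V} (hP : Pl S P) :
    finrank ℂ ↥(P ⊓ P.map (hom o l w)) = 2 := by
  have h1 : P ⊓ LinearMap.ker l ≤ P ⊓ P.map (hom o l w) := by
    rintro v ⟨hv, hvl⟩
    exact ⟨hv, v, hv, hom_of_l hvl⟩
  have h2 : P ⊓ P.map (hom o l w) ≤ P ⊓ LinearMap.ker l := by
    rintro _ ⟨hv, c, hc, rfl⟩
    refine ⟨hv, ?_⟩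
    change l (hom o l w c) = 0
    rw [hC.l_hom]
    by_contra h
    have hlc : l c ≠ 0 := right_ne_zero_of_mul h
    have h3 : ((w - 1) * l c) • o ∈ P := by
      have h4 := P.sub_mem hv hc
      rwa [hom_apply, add_sub_cancel_left] at h4
    exact hC.o_notMem hS hP
      ((P.smul_mem_iff (mul_ne_zero (sub_ne_zero.mpr hw1) hlc)).mp h3)
  rw [le_antisymm h2 h1]
  exact hC.finrank_tr hV hS hP

/-- A plane outside `P ⊔ span {o}`, or its image, does not meet `P` in a line. -/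
lemma Cyc.not_meet (hC : Cyc S o l) [FiniteDimensional ℂ V] (hV : finrank ℂ V = 6)
    (hS : S.Smooth) {w : ℂ} (hw : w ^ 3 = 1) (hw1 : w ≠ 1) {P Q : Submodule ℂ V} (hP : Pl S P)
    (hQ : Pl S Q) (hQP : ¬ Q ≤ P ⊔ span ℂ {o}) :
    ∃ R, Pl S R ∧ R ≠ P ∧ finrank ℂ ↥(P ⊓ R) ≠ 2 := by
  have ho : ∀ R : Submodule ℂ V, Pl S R → finrank ℂ ↥(P ⊓ R) = 2 →
      P ⊓ R ≤ LinearMap.ker l → R ≤ P ⊔ span ℂ {o} := by
    intro R hR h2 h3
    apply hC.le_sup hV hS hP hR
    have h4 : P ⊓ R = R ⊓ LinearMap.ker l :=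
      Submodule.eq_of_le_of_finrank_eq (le_inf inf_le_right h3)
        (by rw [h2, hC.finrank_tr hV hS hR])
    have h5 : P ⊓ R = P ⊓ LinearMap.ker l :=
      Submodule.eq_of_le_of_finrank_eq (le_inf inf_le_left h3)
        (by rw [h2, hC.finrank_tr hV hS hP])
    rw [← h4, ← h5]
  by_cases h2 : finrank ℂ ↥(P ⊓ Q) = 2
  · have h3 : ¬ P ⊓ Q ≤ LinearMap.ker l := fun h => hQP (ho Q hQ h2 h)
    obtain ⟨a, ha, hal⟩ := Set.not_subset.mp h3
    have hR := hC.pl_map hw hQ
    have h4 : P ⊓ Q.map (hom o l w) ≤ LinearMap.ker l := by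
      rintro _ ⟨hv, c, hc, rfl⟩
      have h5 := hC.l_eq_zero hS hw hw1 hP hQ ha.1 ha.2 (fun h => hal h) hc hv
      change l (hom o l w c) = 0
      rw [hC.l_hom, h5, mul_zero]
    have h6 : ¬ Q.map (hom o l w) ≤ P ⊔ span ℂ {o} := by
      intro h
      apply hQP
      intro q hq
      have h7 : hom o l w q ∈ P ⊔ span ℂ {o} := h ⟨q, hq, rfl⟩
      have h8 : q = hom o l w q - ((w - 1) * l q) • o := by
        rw [hom_apply, add_sub_cancel_right]
      rw [h8]
      exact Submodule.sub_mem _ h7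
        (mem_sup_right (Submodule.smul_mem _ _ (mem_span_singleton_self o)))
    refine ⟨Q.map (hom o l w), hR, ?_, fun h => h6 (ho _ hR h h4)⟩
    intro h
    apply h6
    rw [h]
    exact le_sup_left
  · refine ⟨Q, hQ, ?_, h2⟩
    rintro rfl
    exact hQP le_sup_left

end Vale.Agent.P287.R2.H579
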