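import Vale.Agent.P287.R2.H579.Cyc

/-!
P287: cyclic cubic fourfolds (helper579): the homologies `hom o l c`, the two disjoint planes from
two planes that do not meet on `ker l`, and the planes with the same trace on `ker l`.
-/

namespace Vale.Agent.P287.R2.H579

open Module Submodule
open Vale.Agent.P287.R2.H248 Vale.Agent.P287.R2.H622

variable {V : Type*} [AddCommGroup V] [Module ℂ V] {S : Tri V} {o : V} {l : V →ₗ[ℂ] ℂ}

lemma Cyc.sub_mem (hC : Cyc S o l) (v : V) : l (v - l v • o) = 0 := by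
  rw [map_sub, map_smul, hC.lo, smul_eq_mul, mul_one, sub_self]

lemma Cyc.cube (hC : Cyc S o l) {h : V} (hh : l h = 0) (t : ℂ) :
    S.T (h + t • o) (h + t • o) (h + t • o) = S.T h h h + t ^ 3 * S.T o o o := by
  have h1 := S.cube_add 1 t h o
  rw [one_smul] at h1
  rw [h1, ← S.cyc o h h, hC.oh h h hh hh, S.cyc h o o, hC.oo h hh]
  ring

lemma Cyc.shift (hC : Cyc S o l) (v : V) (t : ℂ) :
    S.T (v + t • o) (v + t • o) (v + t • o) =
      S.T v v v + ((l v + t) ^ 3 - l v ^ 3) * S.T o o o := by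
  have hh := hC.sub_mem v
  have e1 : (v - l v • o) + (l v + t) • o = v + t • o := by rw [add_smul]; abel
  have h1 := hC.cube hh (l v + t)
  have h2 := hC.cube hh (l v)
  rw [e1] at h1
  rw [sub_add_cancel] at h2
  linear_combination h1 - h2

lemma Cyc.ne (hC : Cyc S o l) (hS : S.Smooth) : S.T o o o ≠ 0 := by
  intro h
  have h0 : o = 0 := by
    apply hS
    intro w
    have e : w = (w - l w • o) + l w • o := by abel
    rw [e, map_add, map_smul, h, smul_zero, add_zero]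
    exact hC.oo _ (hC.sub_mem w)
  have h1 := hC.lo
  rw [h0, map_zero] at h1
  exact zero_ne_one h1

/-- The homology with centre `o` and axis `ker l`. -/
def hom (o : V) (l : V →ₗ[ℂ] ℂ) (c : ℂ) : V →ₗ[ℂ] V := LinearMap.id + (c - 1) • l.smulRight o

lemma hom_apply (c : ℂ) (v : V) : hom o l c v = v + ((c - 1) * l v) • o := by
  simp only [hom, LinearMap.add_apply, LinearMap.id_apply, LinearMap.smul_apply,
    LinearMap.smulRight_apply, smul_smul]

lemma Cyc.l_hom (hC : Cyc S o l) (c : ℂ) (v : V) : l (hom o l c v) = c * l v := by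
  rw [hom_apply, map_add, map_smul, hC.lo, smul_eq_mul]
  ring

lemma Cyc.cube_hom (hC : Cyc S o l) {c : ℂ} (hc : c ^ 3 = 1) (v : V) :
    S.T (hom o l c v) (hom o l c v) (hom o l c v) = S.T v v v := by
  rw [hom_apply, hC.shift]
  linear_combination (l v) ^ 3 * S.T o o o * hc

lemma Cyc.hom_inj (hC : Cyc S o l) {c : ℂ} (hc : c ≠ 0) :
    Function.Injective (hom o l c) := by
  rw [← LinearMap.ker_eq_bot, LinearMap.ker_eq_bot']
  intro v hv
  have h1 := hC.l_hom c v
  rw [hv, map_zero] at h1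
  have h2 : l v = 0 := (mul_eq_zero.mp h1.symm).resolve_left hc
  rw [hom_apply, h2, mul_zero, zero_smul, add_zero] at hv
  exact hv

lemma ne_zero_of_cube {c : ℂ} (hc : c ^ 3 = 1) : c ≠ 0 := by
  rintro rfl
  norm_num at hc

lemma Cyc.pl_map (hC : Cyc S o l) {c : ℂ} (hc : c ^ 3 = 1) {P : Submodule ℂ V}
    (hP : Pl S P) : Pl S (P.map (hom o l c)) := by
  constructor
  · rw [← hP.1]
    exact (LinearEquiv.finrank_eq
      (Submodule.equivMapOfInjective _ (hC.hom_inj (ne_zero_of_cube hc)) P)).symm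
  · rintro _ ⟨v, hv, rfl⟩
    rw [hC.cube_hom hc]
    exact hP.2 v hv

/-- Two planes which have no common point on the axis: one is disjoint from the other one or from
its image. -/
lemma Cyc.disjoint_or (hC : Cyc S o l) (hS : S.Smooth) {w : ℂ} (hw : w ^ 3 = 1) (hw1 : w ≠ 1)
    {P Q : Submodule ℂ V} (hP : Pl S P) (hQ : Pl S Q)
    (hPQ : ∀ v ∈ P, v ∈ Q → l v = 0 → v = 0) :
    Disjoint P Q ∨ Disjoint P (Q.map (hom o l w)) := by
  by_cases hd : Disjoint P Q
  · exact Or.inl hd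
  right
  rw [Submodule.disjoint_def] at hd
  push Not at hd
  obtain ⟨a, haP, haQ, ha0⟩ := hd
  have hla : l a ≠ 0 := fun h => ha0 (hPQ a haP haQ h)
  rw [Submodule.disjoint_def]
  rintro _ hcP ⟨c, hc, rfl⟩
  have key : ∀ s : ℂ, (l (c + s • a) + (w - 1) * l c) ^ 3 - l (c + s • a) ^ 3 = 0 := by
    intro s
    have h1 : S.T (hom o l w c + s • a) (hom o l w c + s • a) (hom o l w c + s • a) = 0 :=
      hP.2 _ (P.add_mem hcP (P.smul_mem _ haP))
    have h2 : S.T (c + s • a) (c + s • a) (c + s • a) = 0 :=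
      hQ.2 _ (Q.add_mem hc (Q.smul_mem _ haQ))
    have e : hom o l w c + s • a = (c + s • a) + ((w - 1) * l c) • o := by
      rw [hom_apply]; abel
    rw [e, hC.shift, h2, zero_add] at h1
    exact (mul_eq_zero.mp h1).resolve_right (hC.ne hS)
  have k1 := key 1
  have k2 := key (-1)
  simp only [map_add, map_smul, smul_eq_mul] at k1 k2
  have h3 : 6 * l c * l a ^ 2 * (w - 1) = 0 := by
    linear_combination k1 + k2 - 2 * l c ^ 3 * hw
  have h4 : l c = 0 := by
    by_contra h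
    have : 6 * l c * l a ^ 2 * (w - 1) ≠ 0 :=
      mul_ne_zero (mul_ne_zero (mul_ne_zero (by norm_num) h) (pow_ne_zero 2 hla))
        (sub_ne_zero.mpr hw1)
    exact this h3
  have h5 : hom o l w c = c := by
    rw [hom_apply, h4, mul_zero, zero_smul, add_zero]
  rw [h5] at hcP ⊢
  exact hPQ c hcP hc h4

/-- No plane of the hypersurface lies in the axis. -/
lemma Cyc.not_le (hC : Cyc S o l) [FiniteDimensional ℂ V] (hV : finrank ℂ V = 6)
    (hS : S.Smooth) {P : Submodule ℂ V} (hP : Pl S P) : ¬ P ≤ LinearMap.ker l := by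
  intro h
  have ho : o ∉ P := by
    intro h1
    have h2 : l o = 0 := h h1
    rw [hC.lo] at h2
    exact one_ne_zero h2
  obtain ⟨v, hv, hv1⟩ := not_all hV hS hP ho
  apply hv1
  have h3 : l v = 0 := h hv
  rw [← S.cyc o v v, hC.oh v v h3 h3]

lemma Cyc.o_notMem (hC : Cyc S o l) (hS : S.Smooth) {P : Submodule ℂ V} (hP : Pl S P) :
    o ∉ P := fun h => hC.ne hS (hP.2 o h)

lemma Cyc.finrank_tr (hC : Cyc S o l) [FiniteDimensional ℂ V] (hV : finrank ℂ V = 6)
    (hS : S.Smooth) {P : Submodule ℂ V} (hP : Pl S P) :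
    finrank ℂ ↥(P ⊓ LinearMap.ker l) = 2 := by
  obtain ⟨v, hv, hv1⟩ := Set.not_subset.mp (hC.not_le hV hS hP)
  have h1 := finrank_inf_ker hv (fun h => hv1 h : l v ≠ 0)
  rw [hP.1] at h1
  omega

/-- The cube roots of one. -/
lemma cube_eq {w : ℂ} (hw : w ^ 2 + w + 1 = 0) {x y : ℂ} (h : x ^ 3 = y ^ 3) :
    x = 1 * y ∨ x = w * y ∨ x = w ^ 2 * y := by
  have h1 : (x - 1 * y) * ((x - w * y) * (x - w ^ 2 * y)) = 0 := by
    linear_combination h + (-x ^ 2 * y + x * y ^ 2 * w - y ^ 3 * (w - 1)) * hw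
  rcases mul_eq_zero.mp h1 with h2 | h2
  · exact Or.inl (sub_eq_zero.mp h2)
  · rcases mul_eq_zero.mp h2 with h3 | h3
    · exact Or.inr (Or.inl (sub_eq_zero.mp h3))
    · exact Or.inr (Or.inr (sub_eq_zero.mp h3))

/-- Two planes with the same join with `o`. -/
lemma Cyc.eq_map (hC : Cyc S o l) [FiniteDimensional ℂ V] (hS : S.Smooth) {w : ℂ}
    (hw : w ^ 2 + w + 1 = 0) {P Q : Submodule ℂ V} (hP : Pl S P) (hQ : Pl S Q)
    (h : Q ≤ P ⊔ span ℂ {o}) :
    Q = P.map (hom o l 1) ∨ Q = P.map (hom o l w) ∨ Q = P.map (hom o l (w ^ 2)) := by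
  have hw3 : w ^ 3 = 1 := by linear_combination (w - 1) * hw
  have h1 : ∀ x ∈ Q, x ∈ P.map (hom o l 1) ∨ x ∈ P.map (hom o l w) ∨
      x ∈ P.map (hom o l (w ^ 2)) := by
    intro x hx
    obtain ⟨y, hy, z, hz, rfl⟩ := mem_sup.mp (h hx)
    obtain ⟨t, rfl⟩ := mem_span_singleton.mp hz
    have h2 := hQ.2 _ hx
    rw [hC.shift, hP.2 y hy, zero_add] at h2
    have h3 : (l y + t) ^ 3 = l y ^ 3 :=
      sub_eq_zero.mp ((mul_eq_zero.mp h2).resolve_right (hC.ne hS))
    have h4 : ∀ c : ℂ, l y + t = c * l y → y + t • o ∈ P.map (hom o l c) := by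
      intro c hc
      refine ⟨y, hy, ?_⟩
      rw [hom_apply]
      congr 2
      linear_combination -hc
    rcases cube_eq hw h3 with h5 | h5 | h5
    · exact Or.inl (h4 _ h5)
    · exact Or.inr (Or.inl (h4 _ h5))
    · exact Or.inr (Or.inr (h4 _ h5))
  have h2 : ∀ c : ℂ, c ^ 3 = 1 → Q ≤ P.map (hom o l c) → Q = P.map (hom o l c) := by
    intro c hc hle
    apply Submodule.eq_of_le_of_finrank_eq hle
    rw [hQ.1, (hC.pl_map hc hP).1]
  rcases le_of_union h1 with h3 | h3 | h3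
  · exact Or.inl (h2 _ (by norm_num) h3)
  · exact Or.inr (Or.inl (h2 _ hw3 h3))
  · refine Or.inr (Or.inr (h2 _ ?_ h3))
    rw [← pow_mul, show 2 * 3 = 3 * 2 from rfl, pow_mul, hw3, one_pow]

/-- Two planes with the same trace on the axis. -/
lemma Cyc.le_sup (hC : Cyc S o l) [FiniteDimensional ℂ V] (hV : finrank ℂ V = 6)
    (hS : S.Smooth) {P Q : Submodule ℂ V} (hP : Pl S P) (hQ : Pl S Q)
    (h : Q ⊓ LinearMap.ker l = P ⊓ LinearMap.ker l) : Q ≤ P ⊔ span ℂ {o} := by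
  by_contra hcon
  obtain ⟨q, hq, hq1⟩ := Set.not_subset.mp hcon
  have h1 := finrank_sup_single (hC.o_notMem hS hP)
  have h2 := finrank_sup_single (U := P ⊔ span ℂ {o}) hq1
  rw [h1, hP.1] at h2
  refine no_line hV hS (hC.finrank_tr hV hS hP) (N := P ⊔ span ℂ {o} ⊔ span ℂ {q}) (by omega) ?_
  rintro v ⟨hv, hvl⟩
  have hvQ : v ∈ Q := by
    have : v ∈ Q ⊓ LinearMap.ker l := by rw [h]; exact ⟨hv, hvl⟩
    exact this.1
  have hvl' : l v = 0 := hvl
  refine sup_le (sup_le (le_tang hP.2 hv) ?_) ?_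
  · rw [span_singleton_le_iff_mem, mem_tang, ← S.cyc o v v]
    exact hC.oh v v hvl' hvl'
  · rw [span_singleton_le_iff_mem]
    exact le_tang hQ.2 hvQ hq

end Vale.Agent.P287.R2.H579
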