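import Vale.Agent.P287.R2.H579.Count

/-!
P287: cyclic cubic fourfolds (helper579): ten planes, no two of which are disjoint, have a common
point on the axis.
-/

namespace Vale.Agent.P287.R2.H579

open Module Submodule
open Vale.Agent.P287.R2.H248 Vale.Agent.P287.R2.H622

variable {V : Type*} [AddCommGroup V] [Module ℂ V] {S : Tri V} {o : V} {l : V →ₗ[ℂ] ℂ}

lemma mem_span_of_finrank_le [FiniteDimensional ℂ V] {U : Submodule ℂ V} (hU : finrank ℂ U ≤ 1)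
    {a b : V} (ha : a ∈ U) (ha0 : a ≠ 0) (hb : b ∈ U) : b ∈ span ℂ {a} := by
  have h1 : span ℂ {a} = U := by
    apply Submodule.eq_of_le_of_finrank_le
    · rw [span_singleton_le_iff_mem]; exact ha
    · rw [finrank_span_singleton ha0]; exact hU
  rw [h1]
  exact hb

lemma le_of_two [FiniteDimensional ℂ V] {L W : Submodule ℂ V} (hL : finrank ℂ L = 2) {a b : V}
    (ha : a ∈ L) (haW : a ∈ W) (ha0 : a ≠ 0) (hb : b ∈ L) (hbW : b ∈ W)
    (hab : b ∉ span ℂ {a}) : L ≤ W := by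
  by_contra hcon
  apply hab
  apply mem_span_of_finrank_le (U := L ⊓ W) ?_ ⟨ha, haW⟩ ha0 ⟨hb, hbW⟩
  by_contra h
  push Not at h
  apply hcon
  have h1 : L ⊓ W = L := Submodule.eq_of_le_of_finrank_le inf_le_left (by omega)
  exact inf_eq_left.mp h1

lemma le_of_meet [FiniteDimensional ℂ V] {A B L : Submodule ℂ V} (hAB : finrank ℂ ↥(A ⊓ B) ≤ 1)
    {e a b : V} (heA : e ∈ A) (heB : e ∈ B) (heL : e ∉ L) (hL : finrank ℂ L = 2) (ha0 : a ≠ 0)
    (haA : a ∈ A) (haL : a ∈ L) (hb0 : b ≠ 0) (hbB : b ∈ B) (hbL : b ∈ L) : L ≤ A ⊔ B := by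
  refine le_of_two hL haL (mem_sup_left haA) ha0 hbL (mem_sup_right hbB) ?_
  intro h
  obtain ⟨c, rfl⟩ := mem_span_singleton.mp h
  have h1 : e ∈ span ℂ {c • a} :=
    mem_span_of_finrank_le hAB ⟨A.smul_mem _ haA, hbB⟩ hb0 ⟨heA, heB⟩
  obtain ⟨d, rfl⟩ := mem_span_singleton.mp h1
  exact heL (L.smul_mem _ hbL)

theorem Cyc.common (hC : Cyc S o l) [FiniteDimensional ℂ V] (hV : finrank ℂ V = 6)
    (hS : S.Smooth) (hno : ∀ P Q, Pl S P → Pl S Q → ¬ Disjoint P Q)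
    (s : Finset (Submodule ℂ V)) (hs : ∀ P ∈ s, Pl S P) (hc : 10 ≤ s.card) :
    ∃ p, p ≠ 0 ∧ l p = 0 ∧ ∀ P ∈ s, p ∈ P := by
  classical
  obtain ⟨w, hw⟩ : ∃ w : ℂ, w ^ 2 + w + 1 = 0 := by
    obtain ⟨z, hz⟩ := IsAlgClosed.exists_pow_nat_eq (-3 : ℂ) (n := 2) (by norm_num)
    exact ⟨(-1 + z) / 2, by linear_combination (1 / 4 : ℂ) * hz⟩
  have hw3 : w ^ 3 = 1 := by linear_combination (w - 1) * hw
  have hw1 : w ≠ 1 := by
    rintro rfl
    norm_num at hw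
  have hmeet : ∀ P ∈ s, ∀ Q ∈ s, ∃ v, v ∈ P ∧ v ∈ Q ∧ l v = 0 ∧ v ≠ 0 := by
    intro P hP Q hQ
    by_contra hcon
    push Not at hcon
    rcases hC.disjoint_or hS hw3 hw1 (hs P hP) (hs Q hQ) hcon with h | h
    · exact hno _ _ (hs P hP) (hs Q hQ) h
    · exact hno _ _ (hs P hP) (hC.pl_map hw3 (hs Q hQ)) h
  by_contra hcon
  push Not at hcon
  obtain ⟨P1, hP1⟩ : s.Nonempty := Finset.card_pos.mp (by omega)
  obtain ⟨P2, hP2, h12⟩ : ∃ P2 ∈ s, P2 ⊓ LinearMap.ker l ≠ P1 ⊓ LinearMap.ker l := by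
    by_contra hall
    push Not at hall
    have h1 := hC.card_fiber hS s hs (fun P hP Q hQ =>
      hC.le_sup hV hS (hs P hP) (hs Q hQ) ((hall Q hQ).trans (hall P hP).symm))
    omega
  obtain ⟨e, he1, he2, hle, he0⟩ := hmeet P1 hP1 P2 hP2
  have hA := hC.finrank_tr hV hS (hs P1 hP1)
  have hB := hC.finrank_tr hV hS (hs P2 hP2)
  set A := P1 ⊓ LinearMap.ker l with hAdef
  set B := P2 ⊓ LinearMap.ker l with hBdef
  have heA : e ∈ A := ⟨he1, hle⟩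
  have heB : e ∈ B := ⟨he2, hle⟩
  have hAB : finrank ℂ ↥(A ⊓ B) ≤ 1 := by
    by_contra h
    push Not at h
    apply h12
    have h4 : A ⊓ B = A := Submodule.eq_of_le_of_finrank_le inf_le_left (by omega)
    have h5 : A ⊓ B = B := Submodule.eq_of_le_of_finrank_le inf_le_right (by omega)
    rw [← h5]
    exact h4
  have hAB1 : 1 ≤ finrank ℂ ↥(A ⊓ B) := by
    have h1 : span ℂ {e} ≤ A ⊓ B := by
      rw [span_singleton_le_iff_mem]; exact ⟨heA, heB⟩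
    have h2 := Submodule.finrank_mono h1
    rwa [finrank_span_singleton he0] at h2
  have hW : finrank ℂ ↥(A ⊔ B) = 3 := by
    have := Submodule.finrank_sup_add_finrank_inf_eq A B
    omega
  obtain ⟨P3, hP3, he3⟩ := hcon e he0 hle
  have main : ∀ P ∈ s, e ∉ P → P ⊓ LinearMap.ker l ≤ A ⊔ B := by
    intro P hP heP
    obtain ⟨a, ha1, haP, hla, ha0⟩ := hmeet P1 hP1 P hP
    obtain ⟨b, hb2, hbP, hlb, hb0⟩ := hmeet P2 hP2 P hP
    exact le_of_meet hAB heA heB (fun h => heP h.1) (hC.finrank_tr hV hS (hs P hP)) ha0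
      ⟨ha1, hla⟩ ⟨haP, hla⟩ hb0 ⟨hb2, hlb⟩ ⟨hbP, hlb⟩
  have all : ∀ P ∈ s, P ⊓ LinearMap.ker l ≤ A ⊔ B := by
    intro P hP
    by_cases heP : e ∈ P
    · obtain ⟨g, hg3, hgP, hlg, hg0⟩ := hmeet P3 hP3 P hP
      refine le_of_two (hC.finrank_tr hV hS (hs P hP)) (a := e) (b := g) ⟨heP, hle⟩
        (mem_sup_left heA) he0 ⟨hgP, hlg⟩ (main P3 hP3 he3 ⟨hg3, hlg⟩) ?_
      intro h
      obtain ⟨c, rfl⟩ := mem_span_singleton.mp h
      have hc0 : c ≠ 0 := by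
        rintro rfl
        exact hg0 (zero_smul _ _)
      exact he3 ((P3.smul_mem_iff hc0).mp hg3)
    · exact main P hP heP
  have h9 := hC.card_le_nine hV hS s hs hW (sup_le inf_le_right inf_le_right) all
  omega

end Vale.Agent.P287.R2.H579
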