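import Vale.Agent.P287.R2.H992.Poly

/-!
P287 (helper579), ROWS K and L of helper992 (second copies).
-/

namespace Vale.Agent.P287.R2.H579

open Module Submodule MvPolynomial
open Vale.Agent.P287.R2.H248
open Vale.Agent.P287.R2.H622
open Vale.Agent.P287.R2.H992

variable {V : Type*} [AddCommGroup V] [Module ℂ V] [FiniteDimensional ℂ V] {S : Tri V}

omit [FiniteDimensional ℂ V] in
lemma kk_eq (k : Fin 3 → V) (x : Fin 2 → ℂ) : kk k x = k 0 + x 0 • k 1 + x 1 • k 2 := by
  rw [kk, Fin.sum_univ_three]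
  simp [kv]

lemma affine_of_deg {l : MvPolynomial (Fin 2) ℂ} (hd : l.totalDegree ≤ 1) :
    ∃ a b c : ℂ, l = C c + C a * X 0 + C b * X 1 := by
  refine ⟨l.coeff (Finsupp.single 0 1), l.coeff (Finsupp.single 1 1), l.coeff 0, ?_⟩
  ext m
  rw [coeff_add, coeff_add, coeff_C, coeff_C_mul, coeff_C_mul, coeff_X, coeff_X]
  by_cases h0 : m = 0
  · subst h0
    simp
  by_cases h1 : m = Finsupp.single 0 1
  · subst h1
    have e1 : (0 : Fin 2 →₀ ℕ) ≠ Finsupp.single 0 1 := by
      intro h
      have := DFunLike.congr_fun h 0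
      simp at this
    have e2 : (Finsupp.single 1 1 : Fin 2 →₀ ℕ) ≠ Finsupp.single 0 1 := by
      intro h
      have := DFunLike.congr_fun h 0
      simp at this
    rw [if_neg e1, if_pos rfl, if_neg e2]
    ring
  by_cases h2 : m = Finsupp.single 1 1
  · subst h2
    have e1 : (0 : Fin 2 →₀ ℕ) ≠ Finsupp.single 1 1 := by
      intro h
      have := DFunLike.congr_fun h 1
      simp at this
    have e2 : (Finsupp.single 0 1 : Fin 2 →₀ ℕ) ≠ Finsupp.single 1 1 := by
      intro h
      have := DFunLike.congr_fun h 0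
      simp at this
    rw [if_neg e1, if_pos rfl, if_neg e2]
    ring
  rw [if_neg (Ne.symm h0), if_neg (Ne.symm h1), if_neg (Ne.symm h2)]
  have h3 : l.coeff m = 0 := by
    apply coeff_eq_zero_of_totalDegree_lt
    refine lt_of_le_of_lt hd ?_
    have h4 : ∑ i ∈ m.support, m i = m 0 + m 1 := by
      rw [← Fin.sum_univ_two (fun i => m i)]
      apply Finset.sum_subset (Finset.subset_univ _)
      intro i _ hi
      exact Finsupp.notMem_support_iff.mp hi
    rw [h4]
    by_contra hcon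
    push Not at hcon
    have h5 : (m 0 = 0 ∧ m 1 = 0) ∨ (m 0 = 1 ∧ m 1 = 0) ∨ (m 0 = 0 ∧ m 1 = 1) := by omega
    rcases h5 with ⟨ha, hb⟩ | ⟨ha, hb⟩ | ⟨ha, hb⟩
    · apply h0
      ext i
      fin_cases i
      · exact ha
      · exact hb
    · apply h1
      ext i
      fin_cases i
      · simpa using ha
      · simpa using hb
    · apply h2
      ext i
      fin_cases i
      · simpa using ha
      · simpa using hb
  rw [h3]
  ring

/-- ROW M in the form needed below. -/
lemma kk_ind (hV : finrank ℂ V = 6) {P : Submodule ℂ V} (hP : finrank ℂ P = 3)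
    (k : Fin 3 → V) (hk : P ⊔ span ℂ (Set.range k) = ⊤) (a : Fin 3 → ℂ)
    (ha : ∑ l, a l • k l ∈ P) : a = 0 := by
  have h1 := Submodule.finrank_sup_add_finrank_inf_eq P (span ℂ (Set.range k))
  have h2 : finrank ℂ ↥(span ℂ (Set.range k)) ≤ 3 := by
    have := finrank_range_le_card (R := ℂ) k
    simpa [Set.finrank] using this
  rw [hk, finrank_top, hV, hP] at h1
  have h3 : finrank ℂ ↥(span ℂ (Set.range k)) = 3 := by omega
  have h4 : finrank ℂ ↥(P ⊓ span ℂ (Set.range k)) = 0 := by omega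
  have h5 : P ⊓ span ℂ (Set.range k) = ⊥ := Submodule.finrank_eq_zero.mp h4
  have hli : LinearIndependent ℂ k := by
    rw [linearIndependent_iff_card_eq_finrank_span, Set.finrank, h3]
    rfl
  have h6 : ∑ l, a l • k l ∈ P ⊓ span ℂ (Set.range k) :=
    ⟨ha, Submodule.sum_mem _ fun l _ => Submodule.smul_mem _ _ (subset_span ⟨l, rfl⟩)⟩
  rw [h5, Submodule.mem_bot] at h6
  funext l
  exact Fintype.linearIndependent_iff.mp hli a h6 l

/-- ROW M. -/
theorem row_M (hV : finrank ℂ V = 6) {P : Submodule ℂ V} (hP : finrank ℂ P = 3)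
    (k : Fin 3 → V) (hk : P ⊔ span ℂ (Set.range k) = ⊤) :
    (∀ x, kk k x ∉ P) ∧ ∀ x y, x ≠ y → kk k y ∉ P ⊔ span ℂ {kk k x} := by
  refine ⟨?_, ?_⟩
  · intro x hx
    have := kk_ind hV hP k hk (kv x) hx
    have h0 := congrFun this 0
    simp [kv] at h0
  · intro x y hxy h
    obtain ⟨p, hp, z, hz, hpz⟩ := mem_sup.mp h
    obtain ⟨c, rfl⟩ := mem_span_singleton.mp hz
    have h1 := kk_ind hV hP k hk (fun l => kv y l - c * kv x l) (by
      have h2 : ∑ l, (kv y l - c * kv x l) • k l = kk k y - c • kk k x := by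
        rw [kk, kk, Finset.smul_sum, ← Finset.sum_sub_distrib]
        refine Finset.sum_congr rfl fun l _ => ?_
        rw [sub_smul, mul_smul]
      rw [h2, ← hpz, add_sub_cancel_right]
      exact hp)
    have e0 := congrFun h1 0
    have e1 := congrFun h1 1
    have e2 := congrFun h1 2
    simp only [kv, Matrix.cons_val_zero, Matrix.cons_val_one, Matrix.cons_val, Pi.zero_apply]
      at e0 e1 e2
    have hc : c = 1 := by linear_combination -e0
    subst hc
    apply hxy
    funext i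
    fin_cases i
    · change x 0 = y 0
      linear_combination -e1
    · change x 1 = y 1
      linear_combination -e2

/-- ROW L: four points of the chart on a line lie in a plane of directions. -/
theorem row_L (hV : finrank ℂ V = 6) {P : Submodule ℂ V} (hP : finrank ℂ P = 3)
    (k : Fin 3 → V) (hk : P ⊔ span ℂ (Set.range k) = ⊤) (l : MvPolynomial (Fin 2) ℂ)
    (hl : l ≠ 0) (hd : l.totalDegree ≤ 1) (x : Fin 4 → Fin 2 → ℂ) (hx : Function.Injective x)
    (hxl : ∀ i, eval (x i) l = 0) :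
    ∃ D : Submodule ℂ V, finrank ℂ D = 2 ∧ Disjoint P D ∧ (∀ i, kk k (x i) ∈ D) ∧
      (∀ i, kk k (x i) ≠ 0) ∧ ∀ i j, i ≠ j → kk k (x j) ∉ span ℂ {kk k (x i)} := by
  obtain ⟨hM1, hM2⟩ := row_M hV hP k hk
  have hne : ∀ i, kk k (x i) ≠ 0 := fun i h => hM1 (x i) (by rw [h]; exact P.zero_mem)
  have hsp : ∀ i j, i ≠ j → kk k (x j) ∉ span ℂ {kk k (x i)} := fun i j hij h =>
    hM2 (x i) (x j) (fun h => hij (hx h)) (mem_sup_right h)
  obtain ⟨a, b, c, rfl⟩ := affine_of_deg hd
  simp only [map_add, map_mul, eval_C, eval_X] at hxl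
  have hab : a ≠ 0 ∨ b ≠ 0 := by
    by_contra hcon
    push Not at hcon
    obtain ⟨rfl, rfl⟩ := hcon
    have h0 := hxl 0
    simp only [zero_mul, add_zero] at h0
    apply hl
    rw [h0]
    simp
  have h01 : x 0 ≠ x 1 := fun h => by
    have := hx h
    exact absurd this (by decide)
  have hmem : ∀ i, kk k (x i) ∈ span ℂ {kk k (x 0)} ⊔ span ℂ {kk k (x 1)} := by
    intro i
    obtain ⟨s, hs0, hs1⟩ : ∃ s : ℂ, x i 0 - x 0 0 = s * (x 1 0 - x 0 0) ∧
        x i 1 - x 0 1 = s * (x 1 1 - x 0 1) := by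
      have e0 := hxl 0
      have e1 := hxl 1
      have ei := hxl i
      have hcross : (x i 0 - x 0 0) * (x 1 1 - x 0 1) = (x i 1 - x 0 1) * (x 1 0 - x 0 0) := by
        rcases hab with ha | hb
        · have : a * ((x i 0 - x 0 0) * (x 1 1 - x 0 1) -
              (x i 1 - x 0 1) * (x 1 0 - x 0 0)) = 0 := by
            linear_combination (x 1 1 - x 0 1) * (ei - e0) - (x i 1 - x 0 1) * (e1 - e0)
          exact sub_eq_zero.mp ((mul_eq_zero.mp this).resolve_left ha)
        · have : b * ((x i 0 - x 0 0) * (x 1 1 - x 0 1) -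
              (x i 1 - x 0 1) * (x 1 0 - x 0 0)) = 0 := by
            linear_combination (x i 0 - x 0 0) * (e1 - e0) - (x 1 0 - x 0 0) * (ei - e0)
          exact sub_eq_zero.mp ((mul_eq_zero.mp this).resolve_left hb)
      by_cases hd0 : x 1 0 - x 0 0 = 0
      · have hd1 : x 1 1 - x 0 1 ≠ 0 := by
          intro hd1
          apply h01
          funext j
          fin_cases j
          · exact (sub_eq_zero.mp hd0).symm
          · exact (sub_eq_zero.mp hd1).symm
        refine ⟨(x i 1 - x 0 1) / (x 1 1 - x 0 1), ?_, ?_⟩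
        · rw [hd0, mul_zero]
          rw [hd0, mul_zero] at hcross
          exact (mul_eq_zero.mp hcross).resolve_right hd1
        · rw [div_mul_cancel₀ _ hd1]
      · refine ⟨(x i 0 - x 0 0) / (x 1 0 - x 0 0), ?_, ?_⟩
        · rw [div_mul_cancel₀ _ hd0]
        · field_simp
          linear_combination -hcross
    have h2 : kk k (x i) = (1 - s) • kk k (x 0) + s • kk k (x 1) := by
      rw [kk_eq, kk_eq, kk_eq]
      have f0 : x i 0 = (1 - s) * x 0 0 + s * x 1 0 := by linear_combination hs0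
      have f1 : x i 1 = (1 - s) * x 0 1 + s * x 1 1 := by linear_combination hs1
      rw [f0, f1]
      module
    rw [h2]
    exact Submodule.add_mem_sup (Submodule.smul_mem _ _ (mem_span_singleton_self _))
      (Submodule.smul_mem _ _ (mem_span_singleton_self _))
  refine ⟨span ℂ {kk k (x 0)} ⊔ span ℂ {kk k (x 1)}, ?_, ?_, hmem, hne, hsp⟩
  · rw [finrank_sup_single (hsp 0 1 (by decide)), finrank_span_singleton (hne 0)]
  · rw [Submodule.disjoint_def]
    intro v hvP hvD
    obtain ⟨y, hy, z, hz, rfl⟩ := mem_sup.mp hvD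
    obtain ⟨s, rfl⟩ := mem_span_singleton.mp hy
    obtain ⟨t, rfl⟩ := mem_span_singleton.mp hz
    by_cases ht : t = 0
    · subst ht
      rw [zero_smul, add_zero] at hvP ⊢
      by_cases hs : s = 0
      · rw [hs, zero_smul]
      · exact absurd ((P.smul_mem_iff hs).mp hvP) (hM1 _)
    · exfalso
      apply hM2 (x 0) (x 1) h01
      have h3 : t • kk k (x 1) ∈ P ⊔ span ℂ {kk k (x 0)} := by
        have h4 : t • kk k (x 1) = (s • kk k (x 0) + t • kk k (x 1)) - s • kk k (x 0) := by
          abel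
        rw [h4]
        exact Submodule.sub_mem _ (mem_sup_left hvP)
          (mem_sup_right (Submodule.smul_mem _ _ (mem_span_singleton_self _)))
      exact ((P ⊔ span ℂ {kk k (x 0)}).smul_mem_iff ht).mp h3

/-- ROW K: a chart that contains finitely many directions. -/
theorem row_K (hV : finrank ℂ V = 6) {P : Submodule ℂ V} (hP : finrank ℂ P = 3) {N : ℕ}
    (w : Fin N → V) (hw : ∀ i, w i ∉ P) :
    ∃ k : Fin 3 → V, P ⊔ span ℂ (Set.range k) = ⊤ ∧
      ∀ i, ∃ x : Fin 2 → ℂ, P ⊔ span ℂ {w i} = P ⊔ span ℂ {kk k x} := by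
  obtain ⟨q, hq⟩ := exists_not_mem (U := P) (by omega)
  -- a functional
  obtain ⟨f, hfP, hfw, hfq⟩ : ∃ f : V →ₗ[ℂ] ℂ, (∀ u ∈ P, f u = 0) ∧ (∀ i, f (w i) ≠ 0) ∧
      f q ≠ 0 := by
    by_contra hcon
    push Not at hcon
    let W : Option (Fin N) → Submodule ℂ P.dualAnnihilator := fun o =>
      LinearMap.ker ((LinearMap.applyₗ (o.elim q w) : (V →ₗ[ℂ] ℂ) →ₗ[ℂ] ℂ).comp
        P.dualAnnihilator.subtype)
    have hmemW : ∀ (o : Option (Fin N)) (g : P.dualAnnihilator), g ∈ W o ↔
        (g : V →ₗ[ℂ] ℂ) (o.elim q w) = 0 := fun o g => Iff.rfl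
    have hall : (⋃ o, ((W o : Submodule ℂ P.dualAnnihilator) : Set P.dualAnnihilator)) =
        Set.univ := by
      rw [Set.eq_univ_iff_forall]
      intro g
      rw [Set.mem_iUnion]
      have hg : ∀ u ∈ P, (g : V →ₗ[ℂ] ℂ) u = 0 := (Submodule.mem_dualAnnihilator _).mp g.2
      by_cases h : ∀ i, (g : V →ₗ[ℂ] ℂ) (w i) ≠ 0
      · exact ⟨none, (hmemW none g).mpr (hcon g hg h)⟩
      · push Not at h
        obtain ⟨i, hi⟩ := h
        exact ⟨some i, (hmemW (some i) g).mpr hi⟩
    obtain ⟨o, ho⟩ := Subspace.exists_eq_top_of_iUnion_eq_univ hall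
    have hno : o.elim q w ∉ P := by
      cases o with
      | none => exact hq
      | some i => exact hw i
    obtain ⟨g, hg1, hgP⟩ := exists_functional hno
    have h2 : (⟨g, (Submodule.mem_dualAnnihilator _).mpr hgP⟩ : P.dualAnnihilator) ∈ W o := by
      rw [ho]; trivial
    rw [hmemW] at h2
    change g (o.elim q w) = 0 at h2
    rw [hg1] at h2
    exact one_ne_zero h2
  have hPk : P ≤ LinearMap.ker f := fun u hu => hfP u hu
  have hker : finrank ℂ ↥(LinearMap.ker f) = 5 := by
    have h5 := finrank_inf_ker (W := (⊤ : Submodule ℂ V)) (l := f) (w := q) mem_top hfq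
    rw [top_inf_eq, finrank_top, hV] at h5
    omega
  obtain ⟨k1, hk1, hk1P⟩ : ∃ k1 ∈ LinearMap.ker f, k1 ∉ P := by
    apply Set.not_subset.mp
    intro h
    have := Submodule.finrank_mono (show LinearMap.ker f ≤ P from h)
    omega
  have h4 := finrank_sup_single hk1P
  obtain ⟨k2, hk2, hk2P⟩ : ∃ k2 ∈ LinearMap.ker f, k2 ∉ P ⊔ span ℂ {k1} := by
    apply Set.not_subset.mp
    intro h
    have := Submodule.finrank_mono (show LinearMap.ker f ≤ P ⊔ span ℂ {k1} from h)
    omega
  have h5 := finrank_sup_single hk2P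
  have hkf : P ⊔ span ℂ {k1} ⊔ span ℂ {k2} = LinearMap.ker f := by
    apply Submodule.eq_of_le_of_finrank_eq
    · refine sup_le (sup_le hPk ?_) ?_
      · rw [span_singleton_le_iff_mem]; exact hk1
      · rw [span_singleton_le_iff_mem]; exact hk2
    · omega
  have dec : ∀ v : V, ∃ p ∈ P, ∃ b d : ℂ, v = p + f v • ((f q)⁻¹ • q) + b • k1 + d • k2 := by
    intro v
    have h6 : v - f v • ((f q)⁻¹ • q) ∈ P ⊔ span ℂ {k1} ⊔ span ℂ {k2} := by
      rw [hkf]
      change f (v - f v • ((f q)⁻¹ • q)) = 0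
      rw [map_sub, map_smul, map_smul, smul_eq_mul, smul_eq_mul, inv_mul_cancel₀ hfq, mul_one,
        sub_self]
    obtain ⟨y, hy, z, hz, hyz⟩ := mem_sup.mp h6
    obtain ⟨p, hp, y', hy', rfl⟩ := mem_sup.mp hy
    obtain ⟨b, rfl⟩ := mem_span_singleton.mp hy'
    obtain ⟨d, rfl⟩ := mem_span_singleton.mp hz
    refine ⟨p, hp, b, d, ?_⟩
    have h7 : v = (p + b • k1 + d • k2) + f v • ((f q)⁻¹ • q) := by
      rw [hyz]; abel
    rw [h7]
    have h8 : f (p + b • k1 + d • k2 + f v • ((f q)⁻¹ • q)) = f v := by rw [← h7]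
    rw [h8]
    abel
  refine ⟨![(f q)⁻¹ • q, k1, k2], ?_, ?_⟩
  · rw [eq_top_iff]
    intro v _
    obtain ⟨p, hp, b, d, hv⟩ := dec v
    rw [hv]
    have hs : ∀ j : Fin 3, ![(f q)⁻¹ • q, k1, k2] j ∈
        P ⊔ span ℂ (Set.range ![(f q)⁻¹ • q, k1, k2]) := fun j =>
      mem_sup_right (subset_span ⟨j, rfl⟩)
    exact Submodule.add_mem _ (Submodule.add_mem _ (Submodule.add_mem _ (mem_sup_left hp)
      (Submodule.smul_mem _ _ (hs 0))) (Submodule.smul_mem _ _ (hs 1)))
      (Submodule.smul_mem _ _ (hs 2))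
  · intro i
    obtain ⟨p, hp, b, d, hv⟩ := dec (w i)
    have hc := hfw i
    set c := f (w i) with hcdef
    refine ⟨![b / c, d / c], ?_⟩
    have h9 : w i = p + c • kk ![(f q)⁻¹ • q, k1, k2] ![b / c, d / c] := by
      rw [kk_eq]
      simp only [Matrix.cons_val_zero, Matrix.cons_val_one, Matrix.cons_val]
      rw [smul_add, smul_add, smul_smul c (b / c), smul_smul c (d / c), mul_div_cancel₀ _ hc,
        mul_div_cancel₀ _ hc]
      conv_lhs => rw [hv]
      abel
    set z := kk ![(f q)⁻¹ • q, k1, k2] ![b / c, d / c] with hz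
    apply le_antisymm
    · refine sup_le le_sup_left ?_
      rw [span_singleton_le_iff_mem, h9]
      exact Submodule.add_mem_sup hp (Submodule.smul_mem _ _ (mem_span_singleton_self _))
    · refine sup_le le_sup_left ?_
      rw [span_singleton_le_iff_mem]
      have h10 : z = c⁻¹ • (w i - p) := by
        rw [h9, add_sub_cancel_left, smul_smul, inv_mul_cancel₀ hc, one_smul]
      rw [h10]
      exact Submodule.smul_mem _ _ (Submodule.sub_mem _
        (mem_sup_right (mem_span_singleton_self _)) (mem_sup_left hp))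

end Vale.Agent.P287.R2.H579
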