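import Vale.Agent.P287.R2.H992.Good

/-!
P287 (helper579), ROW N of helper992: the net of conics that a smooth cubic fourfold cuts out on a
plane of it contains a smooth conic.
-/

namespace Vale.Agent.P287.R2.H579

open Module Submodule
open Vale.Agent.P287.R2.H248
open Vale.Agent.P287.R2.H622

variable {V : Type*} [AddCommGroup V] [Module ℂ V] {S : Tri V}

/-- the determinant of three vectors -/
def dd (S : Tri V) (x y z w : V) : ℂ :=
  S.T x x w * (S.T y y w * S.T z z w - S.T y z w ^ 2) -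
    S.T x y w * (S.T x y w * S.T z z w - S.T x z w * S.T y z w) +
    S.T x z w * (S.T x y w * S.T y z w - S.T x z w * S.T y y w)

lemma first_order {c1 c2 c3 : ℂ} (h1 : c1 + c2 + c3 = 0) (h2 : -c1 + c2 - c3 = 0)
    (h3 : 2 * c1 + 4 * c2 + 8 * c3 = 0) : c1 = 0 := by
  linear_combination (1 : ℂ) * h1 - (1 / 3 : ℂ) * h2 - (1 / 6 : ℂ) * h3

lemma minor_zero (hS : S.Smooth) {x y z : V}
    (hind : ∀ a b c : ℂ, a • x + b • y + c • z = 0 → a = 0) (hdet : ∀ w, dd S x y z w = 0)
    (w : V) : S.T y y w * S.T z z w - S.T y z w ^ 2 = 0 := by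
  set n0 := S.T y y w * S.T z z w - S.T y z w ^ 2 with hn0
  set n1 := S.T x z w * S.T y z w - S.T x y w * S.T z z w with hn1
  set n2 := S.T x y w * S.T y z w - S.T x z w * S.T y y w with hn2
  apply hind n0 n1 n2
  apply hS
  intro w'
  have h0 := hdet w
  have e : ∀ t : ℂ, dd S x y z (w + t • w') = 0 := fun t => hdet _
  have e1 := e 1
  have e2 := e (-1)
  have e3 := e 2
  unfold dd at h0 e1 e2 e3
  simp only [map_add, map_smul, smul_eq_mul] at e1 e2 e3
  have hc1 : n0 * S.T x x w' + 2 * n1 * S.T x y w' + 2 * n2 * S.T x z w' +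
      (S.T x x w * S.T z z w - S.T x z w ^ 2) * S.T y y w' +
      2 * (S.T x y w * S.T x z w - S.T x x w * S.T y z w) * S.T y z w' +
      (S.T x x w * S.T y y w - S.T x y w ^ 2) * S.T z z w' = 0 := by
    rw [hn0, hn1, hn2]
    linear_combination (1 : ℂ) * e1 - (1 / 3 : ℂ) * e2 - (1 / 6 : ℂ) * e3 - (1 / 2 : ℂ) * h0
  have hT : S.T (n0 • x + n1 • y + n2 • z) (n0 • x + n1 • y + n2 • z) w' =
      n0 ^ 2 * S.T x x w' + n1 ^ 2 * S.T y y w' + n2 ^ 2 * S.T z z w' +
      2 * n0 * n1 * S.T x y w' + 2 * n0 * n2 * S.T x z w' + 2 * n1 * n2 * S.T y z w' := by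
    simp only [map_add, map_smul, LinearMap.add_apply, LinearMap.smul_apply, smul_eq_mul]
    rw [S.s12 y x w', S.s12 z x w', S.s12 z y w']
    ring
  rw [hT]
  rw [hn0, hn1, hn2] at hc1 ⊢
  linear_combination (S.T y y w * S.T z z w - S.T y z w ^ 2) * hc1 +
    (-(S.T z z w * S.T y y w') + 2 * S.T y z w * S.T y z w' - S.T y y w * S.T z z w') * h0

lemma no_minor (hS : S.Smooth) {x y : V} (hx : x ≠ 0)
    (hind : ∀ a b : ℂ, a • x + b • y = 0 → b = 0)
    (h : ∀ w, S.T x x w * S.T y y w - S.T x y w ^ 2 = 0) : False := by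
  obtain ⟨w, hw⟩ : ∃ w, S.T x x w ≠ 0 := by
    by_contra hcon
    push Not at hcon
    exact hx (hS x hcon)
  apply hw
  apply hind (-S.T x y w) (S.T x x w)
  apply hS
  intro w'
  have h0 := h w
  have e1 := h (w + (1 : ℂ) • w')
  have e2 := h (w + (-1 : ℂ) • w')
  simp only [map_add, map_smul, smul_eq_mul] at e1 e2
  have hc : S.T x x w * S.T y y w' + S.T x x w' * S.T y y w - 2 * S.T x y w * S.T x y w' = 0 := by
    linear_combination (1 / 2 : ℂ) * e1 - (1 / 2 : ℂ) * e2
  rw [S.sq_add]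
  linear_combination S.T x x w * hc - S.T x x w' * h0

/-- ROW N of helper992. -/
theorem row_N [FiniteDimensional ℂ V] (_hV : finrank ℂ V = 6) (hS : S.Smooth)
    {P : Submodule ℂ V} (hP : Pl S P) (e : Fin 3 → V) (he : span ℂ (Set.range e) = P)
    (k : Fin 3 → V) (hk : P ⊔ span ℂ (Set.range k) = ⊤) :
    ∃ a : Fin 3 → ℂ, (Matrix.of fun i j => S.T (e i) (e j) (∑ l, a l • k l)).det ≠ 0 := by
  by_contra hcon
  push Not at hcon
  have heP : ∀ i, e i ∈ P := fun i => by
    rw [← he]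
    exact subset_span ⟨i, rfl⟩
  have hli : LinearIndependent ℂ e := by
    rw [linearIndependent_iff_card_eq_finrank_span, Set.finrank, he, hP.1]
    rfl
  have hdet : ∀ w, dd S (e 2) (e 0) (e 1) w = 0 := by
    intro w
    have hw : w ∈ P ⊔ span ℂ (Set.range k) := by rw [hk]; trivial
    obtain ⟨p, hp, q, hq, rfl⟩ := mem_sup.mp hw
    obtain ⟨a, rfl⟩ := (mem_span_range_iff_exists_fun ℂ).mp hq
    have h1 := hcon a
    have h2 : ∀ i j, S.T (e i) (e j) (p + ∑ l, a l • k l) =
        S.T (e i) (e j) (∑ l, a l • k l) := by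
      intro i j
      rw [map_add, hP.2.three (heP i) (heP j) hp, zero_add]
    rw [Matrix.det_fin_three] at h1
    simp only [Matrix.of_apply] at h1
    unfold dd
    simp only [h2]
    rw [S.s12 (e 1) (e 0), S.s12 (e 2) (e 0), S.s12 (e 2) (e 1)] at h1
    rw [S.s12 (e 2) (e 0), S.s12 (e 2) (e 1)]
    linear_combination h1
  have hlin := Fintype.linearIndependent_iff.mp hli
  have hmin : ∀ w, S.T (e 0) (e 0) w * S.T (e 1) (e 1) w - S.T (e 0) (e 1) w ^ 2 = 0 := by
    refine minor_zero hS ?_ hdet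
    intro a b c habc
    have h3 := hlin ![b, c, a] (by
      rw [Fin.sum_univ_three]
      simp only [Matrix.cons_val_zero, Matrix.cons_val_one, Matrix.cons_val]
      rw [← habc]
      abel) 2
    simpa using h3
  refine no_minor hS (hli.ne_zero 0) ?_ hmin
  intro a b hab
  have h3 := hlin ![a, b, 0] (by
    rw [Fin.sum_univ_three]
    simp only [Matrix.cons_val_zero, Matrix.cons_val_one, Matrix.cons_val, zero_smul, add_zero]
    exact hab) 1
  simpa using h3

end Vale.Agent.P287.R2.H579
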